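import Vale.Agent.P088.H183.Ge3

/-!
# P088, theorem C, row GE: the gauge equation
-/

open MeasureTheory Set
open scoped ContDiff Matrix

noncomputable section

namespace Vale.Agent.P088.LR.CC.H183

open CF

variable {n : ℕ}

theorem conj_ex (ξ x : V n) : starRingEnd ℂ (ex ξ x) = ex (-ξ) x := by
  unfold ex
  rw [← Complex.exp_conj]
  congr 1
  have h : ∑ j, (-ξ) j * x j = -∑ j, ξ j * x j := by
    rw [← Finset.sum_neg_distrib]
    exact Finset.sum_congr rfl fun j _ => by rw [Pi.neg_apply, neg_mul]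
  rw [h, map_mul, map_mul, map_mul, Complex.conj_I, Complex.conj_ofReal, Complex.conj_ofReal,
    map_ofNat]
  push_cast
  ring

theorem conj_ft (f : V n → ℝ) (ξ : V n) :
    starRingEnd ℂ (ft (fun x => ((f x : ℝ) : ℂ)) (-ξ)) = ft (fun x => ((f x : ℝ) : ℂ)) ξ := by
  unfold ft
  rw [← integral_conj]
  congr 1
  funext x
  rw [map_mul, Complex.conj_ofReal, conj_ex, neg_neg]

theorem conj_qf (t : MF n) (ξ : V n) (v : Fin n → ℂ) :
    starRingEnd ℂ (qf t (-ξ) v) = qf t ξ (fun j => starRingEnd ℂ (v j)) := by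
  unfold qf
  rw [map_sum]
  refine Finset.sum_congr rfl fun j _ => ?_
  rw [map_sum]
  refine Finset.sum_congr rfl fun l _ => ?_
  rw [map_mul, map_mul]
  congr 1
  exact conj_ft _ ξ

theorem nr_neg (ξ : V n) : nr (-ξ) = nr ξ := by
  unfold nr
  congr 1
  exact Finset.sum_congr rfl fun j _ => by rw [Pi.neg_apply, neg_sq]

/-- `|A + r| = |A|` with `A` near `1`: `r` is nearly imaginary. -/
theorem near_im {A r : ℂ} (h : ‖A + r‖ = ‖A‖) :
    ‖r + starRingEnd ℂ r‖ ≤ 2 * ‖A - 1‖ * ‖r‖ + ‖r‖ ^ 2 := by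
  have h1 : ‖A + r‖ ^ 2 = ‖A‖ ^ 2 := by rw [h]
  rw [← Complex.normSq_eq_norm_sq, ← Complex.normSq_eq_norm_sq, Complex.normSq_apply,
    Complex.normSq_apply, Complex.add_re, Complex.add_im] at h1
  have h2 : ‖r‖ ^ 2 = r.re * r.re + r.im * r.im := by
    rw [← Complex.normSq_eq_norm_sq, Complex.normSq_apply]
  have h3 : |(starRingEnd ℂ (A - 1) * r).re| ≤ ‖A - 1‖ * ‖r‖ := by
    refine (Complex.abs_re_le_norm _).trans ?_
    rw [norm_mul, RCLike.norm_conj]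
  have h4 : (starRingEnd ℂ (A - 1) * r).re = (A.re - 1) * r.re + A.im * r.im := by
    rw [Complex.mul_re, Complex.conj_re, Complex.conj_im, Complex.sub_re, Complex.sub_im,
      Complex.one_re, Complex.one_im]
    ring
  rw [h4] at h3
  have h5 : r + starRingEnd ℂ r = ((2 * r.re : ℝ) : ℂ) := Complex.add_conj r
  rw [h5, Complex.norm_real, Real.norm_eq_abs]
  have h6 := abs_le.1 h3
  rw [abs_le]
  constructor <;> nlinarith [h6.1, h6.2]

/-- The transform of `r` plus that of its conjugate. -/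
theorem rr_bd {r A : V n → ℂ} (hr : Continuous r) {α β : ℝ} (hα : 0 ≤ α) (hβ : 0 ≤ β)
    (h : ∀ x ∈ core n, ‖A x + r x‖ = ‖A x‖) (h1 : ∀ x ∈ core n, ‖A x - 1‖ ≤ α)
    (h2 : ∀ x ∈ core n, ‖r x‖ ≤ β) (ξ : V n) :
    ‖(∫ x in core n, r x * ex (-ξ) x) + starRingEnd ℂ (∫ x in core n, r x * ex (-(-ξ)) x)‖ ≤
      2 * α * β + β ^ 2 := by
  have hint : ∀ {f : V n → ℂ}, Continuous f → IntegrableOn f (core n) := fun h =>
    h.continuousOn.integrableOn_compact H127.isCompact_core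
  have hcx : Continuous (ex (-ξ)) := (H776.ex_contDiff (-ξ)).continuous
  have q1 : starRingEnd ℂ (∫ x in core n, r x * ex (-(-ξ)) x) =
      ∫ x in core n, starRingEnd ℂ (r x) * ex (-ξ) x := by
    rw [← integral_conj]
    congr 1
    funext x
    rw [map_mul, conj_ex, neg_neg]
  have i1 : IntegrableOn (fun x => r x * ex (-ξ) x) (core n) := hint (hr.mul hcx)
  have i2 : IntegrableOn (fun x => starRingEnd ℂ (r x) * ex (-ξ) x) (core n) :=
    hint ((Complex.continuous_conj.comp hr).mul hcx)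
  rw [q1, ← integral_add i1 i2]
  refine core_int (by positivity) fun x hx => ?_
  rw [← add_mul, norm_mul, H776.ex_norm, mul_one]
  refine (near_im (h x hx)).trans ?_
  have h4 := h1 x hx
  have h5 := h2 x hx
  refine add_le_add ?_ (pow_le_pow_left₀ (norm_nonneg _) h5 2)
  exact mul_le_mul (mul_le_mul_of_nonneg_left h4 zero_le_two) h5 (norm_nonneg _) (by positivity)

theorem arith2 {X a C₁ s m : ℝ} (hX0 : 0 < X) (ha : 0 ≤ a) (_ : 0 ≤ C₁) (hs : 0 ≤ s)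
    (hm : 0 ≤ m) :
    (m * (2 * s)) * (4 / X * (2 * (C₁ / X) * (C₁ * X * a) + (C₁ * X * a) ^ 2)) ≤
      16 * m * C₁ ^ 2 * ((1 + s) ^ 2 * (a / X + X * a ^ 2)) := by
  have e2 : 4 / X * (2 * (C₁ / X) * (C₁ * X * a) + (C₁ * X * a) ^ 2) ≤
      8 * C₁ ^ 2 * (a / X + X * a ^ 2) := by
    have e3 : 4 / X * (2 * (C₁ / X) * (C₁ * X * a) + (C₁ * X * a) ^ 2) =
        8 * C₁ ^ 2 * (a / X) + 4 * C₁ ^ 2 * (X * a ^ 2) := by
      field_simp
      ring
    rw [e3]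
    have h1 : 0 ≤ C₁ ^ 2 * (X * a ^ 2) := by positivity
    linarith
  have e4 : s ≤ (1 + s) ^ 2 := by nlinarith
  calc _ ≤ (m * (2 * s)) * (8 * C₁ ^ 2 * (a / X + X * a ^ 2)) :=
        mul_le_mul_of_nonneg_left e2 (by positivity)
    _ = 16 * m * C₁ ^ 2 * (s * (a / X + X * a ^ 2)) := by ring
    _ ≤ _ := mul_le_mul_of_nonneg_left (mul_le_mul_of_nonneg_right e4 (by positivity))
          (by positivity)

theorem gec (hA1 : RowA1) (hBA : RowBAC) (hCG : RowCGC) (hUQ : RowUQC) (hOF : RowOFC) :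
    RowGEC := by
  intro n B
  obtain ⟨C₁, hC₁, H₁⟩ := hCG n 0 B
  obtain ⟨C₂, hC₂, H₂⟩ := hUQ n B
  obtain ⟨C₃, hC₃, H₃⟩ := hOF n B
  set K : ℝ := 4 * C₁ + 3 + |B| * C₁ + 2 * n ^ 2 * C₁ + 4 * n ^ 2 with hK
  have hK0 : 0 ≤ K := by positivity
  have hn0 : (0 : ℝ) ≤ 16 * n * C₁ ^ 2 := by positivity
  have hone : 1 ≤ K + 16 * n * C₁ ^ 2 + C₁ + 2 * C₁ ^ 2 + C₂ + C₃ := by
    nlinarith [sq_nonneg C₁]
  refine ⟨K + 16 * n * C₁ ^ 2 + C₁ + 2 * C₁ ^ 2 + C₂ + C₃, hone,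
    fun X hX jj hjj Ω φ q₀ t q hB hq₀B a ha hS hCXa hG i ξ => ?_⟩
  set C : ℝ := K + 16 * n * C₁ ^ 2 + C₁ + 2 * C₁ ^ 2 + C₂ + C₃ with hCdef
  have hC1C : C₁ ≤ C := by nlinarith [sq_nonneg C₁]
  have hC2C : C₂ ≤ C := by nlinarith [sq_nonneg C₁]
  have hC3C : C₃ ≤ C := by nlinarith [sq_nonneg C₁]
  have hX1 : 1 ≤ X := by linarith
  have hX0 : 0 < X := by linarith
  have hCa : ∀ {D : ℝ}, D ≤ C → D * X * a ≤ 1 := fun h =>
    (mul_le_mul_of_nonneg_right (mul_le_mul_of_nonneg_right h hX0.le) ha).trans hCXa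
  have hsub : ∀ x ∉ core n, x ∉ Ω := fun x hx h => hx (H650.bal_sub (hB.sub h))
  have ht1 : ∀ x ∉ core n, t x = 1 := fun x hx => hB.off x (hsub x hx)
  obtain ⟨hb1, hb2, -⟩ := hBA.2.2.1 Ω φ q₀ t q hB
  have hq01 : ∀ x ∉ core n, q₀ x = 0 := fun x hx => hb1 x fun h => hx (H650.bal_sub h)
  have hq1 : ∀ x ∉ core n, q x = 0 := fun x hx => hb2 x fun h => hx (H650.bal_sub h)
  have hxg : xg jj X i i = 0 := by
    unfold xg
    exact Pi.single_eq_of_ne (hjj i).symm _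
  have hnr : nr (xg jj X i) = X := nr_xg jj hX0.le i
  have hS' : Sz (0 + n + 1) a t q₀ q := by rw [Nat.zero_add]; exact hS
  have hq₀B' : Cl (0 + n + 1) B (cx q₀) := by rw [Nat.zero_add]; exact hq₀B
  obtain ⟨d₀, d, v₀, v, T₀, T, n0, n1, n2, n3⟩ := H₁ i 1 (xg jj X i) (Or.inl rfl) hxg
    (by rw [hnr]; linarith) t q₀ q hB.sm hB.ba.sq hB.sq ht1 hq01 hq1 hq₀B' a ha hS'
    (by rw [hnr]; exact hCa hC1C)
  obtain ⟨c₀, c, u₀, u, S₀, S, hn⟩ := hG i
  have hcd : c = d := H₂ i 1 (xg jj X i) (Or.inl rfl) hxg (by rw [hnr]; linarith) t q₀ q hB.sm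
    hB.ba.sq hB.sq ht1 hq01 hq1 hq₀B a ha hS (by rw [hnr]; exact hCa hC2C) c d u v S T
  have hS1 : Sz (n + 1) 0 (fun _ => 1 : MF n) q₀ q₀ := by
    refine ⟨fun i j l _ x => ?_, fun l _ x => ?_⟩
    · have h0 : ent (fun _ => 1 : MF n) i j = fun _ => 0 := by
        funext y
        simp [ent]
      rw [h0]
      simp
    · have h0 : (fun x => cx q₀ x - cx q₀ x) = fun _ => (0 : ℂ) := by
        funext y
        simp
      rw [h0]
      simp
  have hcd₀ : c₀ = d₀ := H₂ i 1 (xg jj X i) (Or.inl rfl) hxg (by rw [hnr]; linarith)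
    (fun _ => 1) q₀ q₀ smM_one hB.ba.sq hB.ba.sq (fun _ _ => rfl) hq01 hq01 hq₀B 0 le_rfl hS1
    (by rw [mul_zero]; norm_num) c₀ d₀ u₀ v₀ S₀ T₀
  subst hcd hcd₀
  rw [hnr] at n0 n2 n3
  have he : ∀ x ∈ cube n, x ∉ core n → u x = u₀ x := fun x hx hc =>
    H₃ i 1 (xg jj X i) (Or.inl rfl) hxg (by rw [hnr]; linarith) Ω φ q₀ t q hB hq₀B c₀ c u₀ u
      S₀ S x hx (hsub x hc)
  -- bounds
  have hrd := H650.rd_sub S.rc S₀.rc
  have hes : ∀ x, Es (th0 i) c x - Es (th0 i) c₀ x = Es (th0 i) (fun k => c k - c₀ k) x := by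
    intro x
    rw [H650.es_split S.rc S₀.rc]
    ring
  have b0' : ∀ x, ‖Es (th0 i) c₀ x‖ ≤ C₁ / X := fun x => (H127.es_bound S₀.rc _ x).trans n0
  have b0 : ∀ x, ‖Es (th0 i) c₀ x‖ ≤ 1 := fun x => (b0' x).trans (by
    rw [div_le_one hX0]
    linarith)
  have b1 : ∀ x, ‖Es (th0 i) c x - Es (th0 i) c₀ x‖ ≤ C₁ * X * a := fun x => by
    rw [hes]
    exact (H127.es_bound hrd _ x).trans n2
  have b2 : ∀ j x, ‖Es (th0 i) (fun k => lmz i (zs 1 i (xg jj X i)) k j * c k) x‖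
      ≤ C₁ * (1 + X ^ 2 * a) := by
    intro j x
    have r1 := (grad hA1 S₀).2.1 j
    have r2 := (grad hA1 S).2.1 j
    have r3 := H650.rd_sub r2 r1
    rw [H650.es_split r2 r1]
    have e1 := (H127.es_bound r1 (th0 i) x).trans (n1 j)
    have e2 : (fun k => lmz i (zs 1 i (xg jj X i)) k j * c k
        - lmz i (zs 1 i (xg jj X i)) k j * c₀ k) =
        fun k => lmz i (zs 1 i (xg jj X i)) k j * (c k - c₀ k) := by
      funext k
      ring
    have e3 := (H127.es_bound r3 (th0 i) x)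
    rw [e2] at e3
    have e4 := e3.trans (n3 j)
    rw [e2]
    refine (norm_add_le _ _).trans ?_
    calc _ ≤ C₁ + C₁ * X ^ 2 * a := add_le_add e1 e4
      _ = _ := by ring
  have b3 : ∀ i j x, ‖ent t i j x‖ ≤ a := fun i j x => H776.cl_zero (hS.1 i j) x
  have b4 : ∀ x, ‖cx q x - cx q₀ x‖ ≤ a := fun x =>
    H776.cl_zero (f := fun x => cx q x - cx q₀ x) hS.2 x
  have b5 : ∀ x, ‖cx q₀ x‖ ≤ |B| := fun x => (H776.cl_zero hq₀B x).trans (le_abs_self B)
  have key := fun η => est hA1 hX1 ha (by linarith : 0 ≤ C₁) (abs_nonneg B) (hCa hC1C) (hjj i)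
    hB.sm ht1 hB.ba.sq hB.sq S₀ S he b0 b1 b2 b3 b4 b5 η
  set R : V n → ℂ := fun η =>
    ∫ x in core n, (Es (th0 i) c x - Es (th0 i) c₀ x) * ex (-η) x with hR
  set g : ℂ := -(4 * Complex.I / X) * R ξ with hg
  have hXc : (X : ℂ) ≠ 0 := by exact_mod_cast hX0.ne'
  have hs0 : 0 ≤ nr ξ := nr_nonneg ξ
  have hP0 : 0 ≤ a / X + X * a ^ 2 := by positivity
  have hW0 : 0 ≤ (1 + nr ξ) ^ 2 * (a / X + X * a ^ 2) := by positivity
  have hKC : K + 16 * n * C₁ ^ 2 ≤ C := by nlinarith [sq_nonneg C₁]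
  refine ⟨g, ?_, ?_⟩
  · refine (key ξ).trans ?_
    exact mul_le_mul_of_nonneg_right (mul_le_mul_of_nonneg_right (by linarith) (sq_nonneg _)) hP0
  · -- `R ξ + conj (R (-ξ))` is small
    have cE : ∀ {e : Ix n → ℂ}, RD e → Continuous (Es (th0 i) e) := fun h =>
      (hA1 (th0 i) _ h).1.continuous
    have hcr : Continuous fun x => Es (th0 i) c x - Es (th0 i) c₀ x := (cE S.rc).sub (cE S₀.rc)
    have q3 : ‖R ξ + starRingEnd ℂ (R (-ξ))‖ ≤ 2 * (C₁ / X) * (C₁ * X * a) + (C₁ * X * a) ^ 2 := by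
      refine rr_bd (A := fun x => 1 + Es (th0 i) c₀ x) hcr (by positivity) (by positivity)
        (fun x hx => ?_) (fun x _ => ?_) (fun x _ => b1 x) ξ
      · have h1 := hn x (H127.core_sub hx)
        rw [S.val x, S₀.val x, norm_mul, norm_mul] at h1
        have h3 := mul_left_cancel₀ (norm_ne_zero_iff.2 (Complex.exp_ne_zero _)) h1
        show ‖1 + Es (th0 i) c₀ x + (Es (th0 i) c x - Es (th0 i) c₀ x)‖ = ‖1 + Es (th0 i) c₀ x‖
        rw [← h3]
        congr 1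
        ring
      · show ‖1 + Es (th0 i) c₀ x - 1‖ ≤ C₁ / X
        rw [add_sub_cancel_left]
        exact b0' x
    have k1 := key (-ξ)
    rw [nr_neg, ← RCLike.norm_conj (K := ℂ), map_sub, conj_qf, map_mul, map_mul] at k1
    have k2 : starRingEnd ℂ (∑ j, tg jj i j * (((-ξ) j : ℝ) : ℂ)) =
        -∑ j, starRingEnd ℂ (tg jj i j) * (ξ j : ℂ) := by
      rw [map_sum, ← Finset.sum_neg_distrib]
      refine Finset.sum_congr rfl fun j _ => ?_
      rw [map_mul, Complex.conj_ofReal, Pi.neg_apply]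
      push_cast
      ring
    have k3 : starRingEnd ℂ (-(4 * Complex.I / (X : ℂ))) = 4 * Complex.I / X := by
      rw [map_neg, map_div₀, map_mul, Complex.conj_I, Complex.conj_ofReal, map_ofNat]
      ring
    rw [k2, k3] at k1
    have k4 : ‖∑ j, starRingEnd ℂ (tg jj i j) * (ξ j : ℂ)‖ ≤ n * (2 * nr ξ) := by
      refine (norm_sum_le _ _).trans ?_
      calc ∑ j, ‖starRingEnd ℂ (tg jj i j) * (ξ j : ℂ)‖ ≤ ∑ _j : Fin n, 2 * nr ξ :=
            Finset.sum_le_sum fun j _ => by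
              rw [norm_mul, RCLike.norm_conj, Complex.norm_real, Real.norm_eq_abs]
              exact mul_le_mul (tg_norm jj i j) (abs_le_nr ξ j) (abs_nonneg _) zero_le_two
        _ = _ := by simp
    have k5 : qf t ξ (fun j => starRingEnd ℂ (tg jj i j))
        + (∑ j, starRingEnd ℂ (tg jj i j) * (ξ j : ℂ)) * g =
        (qf t ξ (fun j => starRingEnd ℂ (tg jj i j))
          - -(∑ j, starRingEnd ℂ (tg jj i j) * (ξ j : ℂ))
            * (4 * Complex.I / X * starRingEnd ℂ (R (-ξ))))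
        - (∑ j, starRingEnd ℂ (tg jj i j) * (ξ j : ℂ))
            * (4 * Complex.I / X * (R ξ + starRingEnd ℂ (R (-ξ)))) := by
      rw [hg]
      ring
    have k6 : ‖(∑ j, starRingEnd ℂ (tg jj i j) * (ξ j : ℂ))
        * (4 * Complex.I / X * (R ξ + starRingEnd ℂ (R (-ξ))))‖ ≤
        16 * n * C₁ ^ 2 * ((1 + nr ξ) ^ 2 * (a / X + X * a ^ 2)) := by
      have e1 : ‖4 * Complex.I / (X : ℂ)‖ = 4 / X := by
        rw [norm_div, norm_mul, Complex.norm_I, Complex.norm_real, Real.norm_eq_abs,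
          abs_of_pos hX0]
        norm_num
      rw [norm_mul, norm_mul, e1]
      refine le_trans ?_ (arith2 hX0 ha (by linarith) hs0 (Nat.cast_nonneg n))
      exact mul_le_mul k4 (mul_le_mul_of_nonneg_left q3 (by positivity)) (by positivity)
        (by positivity)
    rw [k5]
    refine (norm_sub_le _ _).trans ?_
    have k7 : K * (1 + nr ξ) ^ 2 * (a / X + X * a ^ 2)
        + 16 * n * C₁ ^ 2 * ((1 + nr ξ) ^ 2 * (a / X + X * a ^ 2)) ≤
        C * (1 + nr ξ) ^ 2 * (a / X + X * a ^ 2) := by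
      rw [mul_assoc, mul_assoc C, ← add_mul]
      exact mul_le_mul_of_nonneg_right hKC hW0
    exact (add_le_add k1 k6).trans k7

end Vale.Agent.P088.LR.CC.H183
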