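import Vale.Agent.P088.H639.KCD

/-!
# P088: the uniform exterior ball of a smooth domain
-/

open MeasureTheory Set Filter Topology
open scoped ContDiff

noncomputable section

namespace Vale.Agent.P088.H183

open Vale.Agent.P088.LR Vale.Agent.P088.LR.B Vale.Agent.P088.H639 Vale.Agent.P088.H639.Kv

variable {n : ℕ} {ρ : V n → ℝ}

/-- Second derivatives are bounded. -/
theorem d2_bd (D : Dom ρ) : ∃ L : ℝ, 0 ≤ L ∧ ∀ x, ‖fderiv ℝ (fderiv ℝ ρ) x‖ ≤ L := by
  have h1 : ContDiff ℝ ∞ (fderiv ℝ ρ) := D.sm.fderiv_right (by simp)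
  have hc : Continuous fun x => fderiv ℝ (fderiv ℝ ρ) x := h1.continuous_fderiv (by simp)
  have hcl : IsClosed (core n) := by
    have h : core n = Set.pi univ fun _ => Icc (1 / 4 : ℝ) (3 / 4) := by
      ext x
      simp only [core, Set.mem_ofPred_eq, Set.mem_pi, Set.mem_univ, forall_true_left, Set.mem_Icc]
    rw [h]
    exact (isCompact_univ_pi fun _ => isCompact_Icc).isClosed
  have hcc : IsCompact (core n) := by
    have h : core n = Set.pi univ fun _ => Icc (1 / 4 : ℝ) (3 / 4) := by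
      ext x
      simp only [core, Set.mem_ofPred_eq, Set.mem_pi, Set.mem_univ, forall_true_left, Set.mem_Icc]
    rw [h]
    exact isCompact_univ_pi fun _ => isCompact_Icc
  obtain ⟨L, hL⟩ := hcc.exists_bound_of_continuousOn (f := fun x => fderiv ℝ (fderiv ℝ ρ) x)
    hc.continuousOn
  refine ⟨max L 0, le_max_right _ _, fun x => ?_⟩
  by_cases hx : x ∈ core n
  · exact (hL x hx).trans (le_max_left _ _)
  · have h2 : ρ =ᶠ[𝓝 x] fun _ => -1 := by
      filter_upwards [hcl.isOpen_compl.mem_nhds hx] with y hy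
      exact D.off y hy
    have h3 : fderiv ℝ ρ =ᶠ[𝓝 x] fun _ => 0 := by
      filter_upwards [h2.eventuallyEq_nhds] with y hy
      rw [hy.fderiv_eq]
      simp
    have h4 : fderiv ℝ (fderiv ℝ ρ) x = 0 := by
      rw [h3.fderiv_eq]
      exact fderiv_const_apply _
    rw [h4]
    exact (le_of_eq ContinuousLinearMap.opNorm_zero).trans (le_max_right _ _)

theorem taylor_u {L : ℝ} (hρ : ContDiff ℝ ∞ ρ) (hL0 : 0 ≤ L)
    (hL : ∀ x, ‖fderiv ℝ (fderiv ℝ ρ) x‖ ≤ L) (p x : V n) :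
    ρ x ≤ ρ p + fderiv ℝ ρ p (x - p) + L * ‖x - p‖ ^ 2 := by
  have h1 : ContDiff ℝ ∞ (fderiv ℝ ρ) := hρ.fderiv_right (by simp)
  have hd : ∀ y ∈ Metric.closedBall p ‖x - p‖, ‖fderiv ℝ ρ y - fderiv ℝ ρ p‖ ≤
      L * ‖x - p‖ := by
    intro y hy
    have := (convex_closedBall p ‖x - p‖).norm_image_sub_le_of_norm_fderiv_le (𝕜 := ℝ)
      (f := fderiv ℝ ρ) (C := L) (fun z _ => (h1.differentiable (by simp)) z)
      (fun z _ => hL z) (Metric.mem_closedBall_self (norm_nonneg _)) hy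
    refine this.trans (mul_le_mul_of_nonneg_left ?_ hL0)
    rw [Metric.mem_closedBall, dist_eq_norm] at hy
    exact hy
  have h2 := (convex_closedBall p ‖x - p‖).norm_image_sub_le_of_norm_fderiv_le' (𝕜 := ℝ)
    (f := ρ) (φ := fderiv ℝ ρ p) (C := L * ‖x - p‖)
    (fun z _ => (hρ.differentiable (by simp)) z) hd
    (Metric.mem_closedBall_self (norm_nonneg _)) (y := x) (by
      rw [Metric.mem_closedBall, dist_eq_norm])
  have h3 := (Real.le_norm_self _).trans h2
  nlinarith [h3]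

/-- The gradient is bounded below on the boundary. -/
theorem grad_lb (D : Dom ρ) : ∃ c₀ : ℝ, 0 < c₀ ∧ ∀ p, ρ p = 0 → c₀ ≤ ∑ i, pd i ρ p ^ 2 := by
  have hcc : IsCompact (core n) := by
    have h : core n = Set.pi univ fun _ => Icc (1 / 4 : ℝ) (3 / 4) := by
      ext x
      simp only [core, Set.mem_ofPred_eq, Set.mem_pi, Set.mem_univ, forall_true_left, Set.mem_Icc]
    rw [h]
    exact isCompact_univ_pi fun _ => isCompact_Icc
  have hK : IsCompact {x | ρ x = 0} := by
    refine hcc.of_isClosed_subset (isClosed_eq D.sm.continuous continuous_const) fun x hx => ?_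
    by_contra h
    have h2 := D.off x h
    rw [hx] at h2
    norm_num at h2
  have hcont : Continuous fun x => ∑ i, pd i ρ x ^ 2 := by
    refine continuous_finsetSum _ fun i _ => Continuous.pow ?_ 2
    exact (D.sm.continuous_fderiv (by simp)).clm_apply continuous_const
  rcases Set.eq_empty_or_nonempty {x | ρ x = 0} with h0 | h0
  · refine ⟨1, one_pos, fun p hp => ?_⟩
    have : p ∈ {x | ρ x = 0} := hp
    rw [h0] at this
    exact absurd this (Set.notMem_empty p)
  · obtain ⟨y, hy, hmin⟩ := hK.exists_isMinOn h0 hcont.continuousOn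
    refine ⟨∑ i, pd i ρ y ^ 2, ?_, fun p hp => hmin hp⟩
    have hn : 0 ≤ ∑ i, pd i ρ y ^ 2 := Finset.sum_nonneg fun _ _ => sq_nonneg _
    refine lt_of_le_of_ne hn fun h => D.nz y hy ?_
    have h3 : ∀ i, pd i ρ y = 0 := fun i => by
      have := (Finset.sum_eq_zero_iff_of_nonneg fun _ _ => sq_nonneg _).1 h.symm i
        (Finset.mem_univ i)
      exact pow_eq_zero_iff (two_ne_zero) |>.1 this
    ext v
    rw [H639.fderiv_sum]
    simp [h3]

/-- The exterior ball, uniform in the boundary point. -/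
theorem ext_ball_u (D : Dom ρ) : ∃ r : ℝ, 0 < r ∧ ∀ p, ρ p = 0 → ∀ ν : V n, ∑ i, ν i ^ 2 = 1 →
    (∃ c > 0, ∀ i, pd i ρ p = c * ν i) → ∀ x ∈ closure (Om ρ),
      r ^ 2 + (∑ j, (x j - p j) ^ 2) / 2 ≤ S (fun j => p j - r * ν j) x := by
  obtain ⟨L, hL0, hL⟩ := d2_bd D
  obtain ⟨c₀, hc₀, hcl⟩ := grad_lb D
  set d : ℝ := √c₀ with hd
  have hd0 : 0 < d := Real.sqrt_pos.2 hc₀
  refine ⟨1 / (4 * (L / d + 1)), by positivity, fun p hp ν hν hc x hx => ?_⟩
  obtain ⟨c, hc0, hc⟩ := hc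
  set r : ℝ := 1 / (4 * (L / d + 1)) with hr
  have hr0 : 0 < r := by positivity
  have hcd : d ≤ c := by
    have h1 : ∑ i, pd i ρ p ^ 2 = c ^ 2 := by
      have : ∀ i, pd i ρ p ^ 2 = c ^ 2 * ν i ^ 2 := fun i => by
        rw [hc i]
        ring
      rw [Finset.sum_congr rfl fun i _ => this i, ← Finset.mul_sum, hν, mul_one]
    have h2 := hcl p hp
    rw [h1] at h2
    rw [hd]
    exact Real.sqrt_le_iff.2 ⟨hc0.le, h2⟩
  have hrL : r * (L / c) ≤ 1 / 4 := by
    have h1 : L / c ≤ L / d := div_le_div_of_nonneg_left hL0 hd0 hcd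
    have h2 : r * (L / d) ≤ 1 / 4 := by
      rw [hr, div_mul_eq_mul_div, one_mul, div_le_iff₀ (by positivity)]
      linarith [show 0 ≤ L / d by positivity]
    nlinarith
  have hx0 : 0 ≤ ρ x := by
    have : closure (Om ρ) ⊆ {x | 0 ≤ ρ x} :=
      closure_minimal (fun y (hy : 0 < ρ y) => (hy.le : 0 ≤ ρ y))
        (isClosed_le continuous_const D.sm.continuous)
    exact this hx
  have h1 := taylor_u D.sm hL0 hL p x
  rw [hp, H639.fderiv_sum, zero_add] at h1
  have h2 : ∑ i, (x - p) i * pd i ρ p = c * ∑ i, ν i * (x i - p i) := by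
    rw [Finset.mul_sum]
    refine Finset.sum_congr rfl fun i _ => ?_
    rw [hc i, Pi.sub_apply]
    ring
  rw [h2] at h1
  have h3 : ‖x - p‖ ^ 2 ≤ ∑ j, (x j - p j) ^ 2 := norm_sq_le_sum (x - p)
  set Q : ℝ := ∑ j, (x j - p j) ^ 2 with hQ
  set T : ℝ := ∑ i, ν i * (x i - p i) with hT
  have hQ0 : 0 ≤ Q := Finset.sum_nonneg fun _ _ => sq_nonneg _
  have h4 : -(L / c * Q) ≤ T := by
    have h5 : 0 ≤ c * T + L * Q := by nlinarith
    have h6 : -(L / c * Q) = -(L * Q) / c := by ring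
    rw [h6, div_le_iff₀ hc0]
    linarith
  have h7 : S (fun j => p j - r * ν j) x = Q + 2 * r * T + r ^ 2 := by
    unfold S
    have : ∀ j, (x j - (p j - r * ν j)) ^ 2 = (x j - p j) ^ 2 + 2 * r * (ν j * (x j - p j)) +
        r ^ 2 * ν j ^ 2 := fun j => by ring
    simp only [this, Finset.sum_add_distrib, ← Finset.mul_sum, hν]
    ring
  rw [h7]
  nlinarith

theorem ball : Vale.Agent.P088.H639.KC.RowBall := fun _ D => ext_ball_u D

end Vale.Agent.P088.H183
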