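import Vale.Agent.P088.H650.CFc
import Vale.Agent.P088.H158.PushB
import Vale.Agent.P088.H884.A4
import Vale.Agent.P088.H757.Weak
import Vale.Agent.P088.H393.CFSym
import Vale.Agent.P088.H442.C.Defs

/-!
# P088, theorem C, row GE, first part: the integral identity
-/

open MeasureTheory Set
open scoped ContDiff Matrix

noncomputable section

namespace Vale.Agent.P088.LR.CC.H183

open CF

variable {n : ℕ}

theorem cube_open : IsOpen (cube n) := by
  have h : cube n = Set.pi univ fun _ => Ioo (0 : ℝ) 1 := by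
    ext x
    simp [cube]
  rw [h]
  exact isOpen_set_pi finite_univ fun _ _ => isOpen_Ioo

theorem core_closed : IsClosed (core n) := H127.isCompact_core.isClosed

/-- The integral over the core of a divergence. -/
theorem div_core {F : Fin n → V n → ℂ} (hF : ∀ i, ContDiff ℝ ∞ (F i))
    (h0 : ∀ i, ∀ x ∈ cube n, x ∉ core n → F i x = 0) :
    ∫ x in core n, ∑ i, pd i (F i) x = 0 := by
  obtain ⟨χ, hχ, hχ1, hχs, -⟩ := H884.exists_chi n
  have hG : ∀ i, ContDiff ℝ ∞ (fun x => χ x * F i x) := fun i => hχ.mul (hF i)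
  have hG0 : ∀ i, ∀ x ∉ core n, χ x * F i x = 0 := by
    intro i x hx
    by_cases hc : x ∈ cube n
    · rw [h0 i x hc hx, mul_zero]
    · have : χ x = 0 := by
        by_contra h
        exact hc (hχs (subset_tsupport χ h))
      rw [this, zero_mul]
  have hb : Bornology.IsBounded (core n) := H127.isCompact_core.isBounded
  have h1 : ∫ x, ∑ i, pd i (fun x => χ x * F i x) x = 0 := by
    rw [integral_finsetSum _ fun i _ => (H158.integral_pd_zero hb (hG i) (hG0 i) i).1]
    exact Finset.sum_eq_zero fun i _ => (H158.integral_pd_zero hb (hG i) (hG0 i) i).2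
  have h2 : ∫ x in core n, ∑ i, pd i (fun x => χ x * F i x) x =
      ∫ x, ∑ i, pd i (fun x => χ x * F i x) x := by
    apply setIntegral_eq_integral_of_forall_compl_eq_zero
    intro x hx
    refine Finset.sum_eq_zero fun i _ => ?_
    have h3 : (fun x => χ x * F i x) =ᶠ[nhds x] fun _ => 0 := by
      filter_upwards [core_closed.isOpen_compl.mem_nhds hx] with y hy
      exact hG0 i y hy
    unfold pd
    rw [h3.fderiv_eq]
    simp
  rw [← h1, ← h2]
  refine setIntegral_congr_fun core_closed.measurableSet fun x hx => ?_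
  refine Finset.sum_congr rfl fun i _ => ?_
  have h3 : (fun x => χ x * F i x) =ᶠ[nhds x] F i := by
    filter_upwards [cube_open.mem_nhds (H127.core_sub hx)] with y hy
    by_cases hc : y ∈ core n
    · rw [hχ1 y hc, one_mul]
    · rw [h0 i y hy hc, mul_zero]
  unfold pd
  rw [h3.fderiv_eq]

theorem dv_eq (s : MF n) (W : V n → ℂ) (x : V n) : dv s W x = ∑ i, pd i (flx s W i) x := rfl

theorem flx_one (W : V n → ℂ) (i : Fin n) (x : V n) : flx (fun _ => 1) W i x = pd i W x := by
  unfold flx
  rw [Finset.sum_eq_single i]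
  · simp
  · intro j _ hj
    simp [Matrix.one_apply_ne' hj]
  · intro h
    exact absurd (Finset.mem_univ i) h

theorem smM_one : SmM (fun _ => 1 : MF n) := fun _ _ => contDiff_const

/-- Green's identity on the core for two solutions which are equal off the core. -/
theorem green {t : MF n} (ht : SmM t) (ht1 : ∀ x ∉ core n, t x = 1) {u u₀ E : V n → ℂ}
    (hu : ContDiff ℝ ∞ u) (hu₀ : ContDiff ℝ ∞ u₀) (hE : ContDiff ℝ ∞ E)
    (he : ∀ x ∈ cube n, x ∉ core n → u x = u₀ x) :
    ∫ x in core n, (E x * (dv t u x - dv (fun _ => 1) u₀ x)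
      + (∑ i, ∑ j, ent t i j x * pd j u x * pd i E x)
      - (u x - u₀ x) * dv (fun _ => 1) E x) = 0 := by
  have hft := contDiff_flx ht hu
  have hf1 := contDiff_flx (smM_one (n := n)) hu₀
  have hfE := contDiff_flx (smM_one (n := n)) hE
  have h1 := div_core (F := fun i x => E x * (flx t u i x - flx (fun _ => 1) u₀ i x)
    - (u x - u₀ x) * flx (fun _ => 1) E i x)
    (fun i => (hE.mul ((hft i).sub (hf1 i))).sub ((hu.sub hu₀).mul (hfE i))) (by
      intro i x hx hc
      have hd : ∀ j, pd j u x = pd j u₀ x := by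
        intro j
        have h3 : u =ᶠ[nhds x] u₀ := by
          filter_upwards [(cube_open.inter core_closed.isOpen_compl).mem_nhds ⟨hx, hc⟩] with y hy
          exact he y hy.1 hy.2
        unfold pd
        rw [h3.fderiv_eq]
      have h4 : flx t u i x = flx (fun _ => 1) u₀ i x := by
        unfold flx
        rw [ht1 x hc]
        exact Finset.sum_congr rfl fun j _ => by rw [hd j]
      show E x * (flx t u i x - flx (fun _ => 1) u₀ i x)
        - (u x - u₀ x) * flx (fun _ => 1) E i x = 0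
      rw [h4, he x hx hc]
      ring)
  rw [← h1]
  refine setIntegral_congr_fun core_closed.measurableSet fun x _ => ?_
  show _ = ∑ i, pd i (fun x => E x * (flx t u i x - flx (fun _ => 1) u₀ i x)
    - (u x - u₀ x) * flx (fun _ => 1) E i x) x
  have hdf : ∀ {f : V n → ℂ}, ContDiff ℝ ∞ f → Differentiable ℝ f :=
    fun h => h.differentiable (by simp)
  have hps : ∀ {f g : V n → ℂ}, ContDiff ℝ ∞ f → ContDiff ℝ ∞ g → ∀ i,
      pd i (fun y => f y - g y) x = pd i f x - pd i g x := by
    intro f g hf hg i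
    unfold pd
    rw [fderiv_fun_sub (hdf hf x) (hdf hg x)]
    rfl
  have h2 : ∀ i, pd i (fun x => E x * (flx t u i x - flx (fun _ => 1) u₀ i x)
      - (u x - u₀ x) * flx (fun _ => 1) E i x) x =
      E x * (pd i (flx t u i) x - pd i (flx (fun _ => 1) u₀ i) x)
      + (pd i E x * flx t u i x - pd i u x * pd i E x)
      - (u x - u₀ x) * pd i (flx (fun _ => 1) E i) x := by
    intro i
    rw [hps (hE.mul ((hft i).sub (hf1 i))) ((hu.sub hu₀).mul (hfE i)),
      H127.pd_mul' (hdf hE) (hdf ((hft i).sub (hf1 i))),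
      H127.pd_mul' (hdf (hu.sub hu₀)) (hdf (hfE i)), hps (hft i) (hf1 i), hps hu hu₀,
      flx_one u₀, flx_one E]
    ring
  rw [Finset.sum_congr rfl fun i _ => h2 i, Finset.sum_sub_distrib, Finset.sum_add_distrib,
    ← Finset.mul_sum, ← Finset.mul_sum, Finset.sum_sub_distrib, dv_eq, dv_eq, dv_eq]
  congr 2
  refine Finset.sum_congr rfl fun i _ => ?_
  unfold flx ent
  rw [Finset.mul_sum]
  have h3 : pd i u x * pd i E x =
      ∑ j, (((1 : Matrix (Fin n) (Fin n) ℝ) i j : ℝ) : ℂ) * pd j u x * pd i E x := by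
    rw [Finset.sum_eq_single i]
    · simp
    · intro j _ hj
      simp [Matrix.one_apply_ne' hj]
    · intro h
      exact absurd (Finset.mem_univ i) h
  rw [h3, ← Finset.sum_sub_distrib]
  refine Finset.sum_congr rfl fun j _ => ?_
  push_cast
  ring

/-- The gradient of `e^{z·x} (1 + Es θ c)`. -/
theorem grad (hA1 : RowA1) {z : Fin n → ℂ} {i₀ : Fin n} {t : MF n} {q : V n → ℝ}
    {c : Ix n → ℂ} {u : V n → ℂ} (S : SolQ z (th0 i₀) t q c u) :
    ContDiff ℝ ∞ u ∧ (∀ i, RD fun k => lmz i₀ z k i * c k) ∧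
      ∀ i x, pd i u x = H127.exw z x * (z i + Es (th0 i₀) (fun k => lmz i₀ z k i * c k) x) := by
  have hu : u = fun x => H127.exw z x * (1 + Es (th0 i₀) c x) := funext S.val
  have hl : ∀ i, (fun k => lmz i₀ z k i * c k) = fun k =>
      2 * Real.pi * Complex.I * ((fr (th0 i₀) k i : ℝ) : ℂ) * c k + z i * c k := by
    intro i
    funext k
    rw [lmz]
    ring
  have hr : ∀ i, RD fun k => lmz i₀ z k i * c k := by
    intro i
    rw [hl]
    exact H127.rd_add (H127.rd_fr S.rc (th0 i₀) i) (H127.rd_const_mul S.rc (z i))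
  have hd : Differentiable ℝ (Es (th0 i₀) c) := (hA1 (th0 i₀) c S.rc).1.differentiable (by simp)
  refine ⟨?_, hr, ?_⟩
  · rw [hu]
    exact (H127.exw_contDiff _).mul (contDiff_const.add (hA1 (th0 i₀) c S.rc).1)
  · intro i x
    rw [hu]
    have h1 : pd i (fun x => H127.exw z x * (1 + Es (th0 i₀) c x)) x =
        pd i (H127.exw z) x * (1 + Es (th0 i₀) c x)
        + H127.exw z x * pd i (fun y => 1 + Es (th0 i₀) c y) x :=
      H127.pd_mul' (H127.exw_diff _) ((differentiable_const _).add hd) i x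
    rw [h1, H127.pd_exw, H127.pd_const_add, (hA1 (th0 i₀) c S.rc).2 i x, hl,
      H127.es_add (H127.rd_fr S.rc (th0 i₀) i) (H127.rd_const_mul S.rc (z i)), H127.es_mul]
    ring

/-- `Δ e^{z·x} = (z·z) e^{z·x}`. -/
theorem dv_exw' (z : Fin n → ℂ) (x : V n) :
    dv (fun _ => 1) (H127.exw z) x = (∑ j, z j ^ 2) * H127.exw z x := by
  rw [dv_eq, Finset.sum_mul]
  refine Finset.sum_congr rfl fun i _ => ?_
  have h1 : flx (fun _ => 1) (H127.exw z) i = fun y => z i * H127.exw z y := by
    funext y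
    rw [flx_one, H127.pd_exw]
  rw [h1, H127.pd_const_mul _ (H127.exw_diff z), H127.pd_exw]
  ring

/-- the exponent of the test function -/
def zt (z : Fin n → ℂ) (ξ : V n) (j : Fin n) : ℂ := -z j - 2 * Real.pi * Complex.I * (ξ j : ℂ)

theorem exw_zt (z : Fin n → ℂ) (ξ x : V n) :
    H127.exw (zt z ξ) x * H127.exw z x = ex (-ξ) x := by
  unfold H127.exw ex
  rw [← Complex.exp_add, ← Finset.sum_add_distrib]
  congr 1
  push_cast
  rw [Finset.mul_sum]
  refine Finset.sum_congr rfl fun j _ => ?_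
  rw [zt, Pi.neg_apply]
  push_cast
  ring

end Vale.Agent.P088.LR.CC.H183
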