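import Vale.Agent.P088.H183.Ge1

/-!
# P088, theorem C, row GE, second part: the estimate
-/

open MeasureTheory Set
open scoped ContDiff Matrix

noncomputable section

namespace Vale.Agent.P088.LR.CC.H183

open CF

variable {n : ℕ}

theorem core_int {f : V n → ℂ} {M : ℝ} (hM : 0 ≤ M) (h : ∀ x ∈ core n, ‖f x‖ ≤ M) :
    ‖∫ x in core n, f x‖ ≤ M := by
  have h1 : (volume : Measure (V n)) (core n) ≤ 1 :=
    (measure_mono H127.core_sub).trans H776.vol_cube.le
  have h2 := norm_setIntegral_le_of_norm_le_const (μ := (volume : Measure (V n)))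
    (lt_of_le_of_lt h1 ENNReal.one_lt_top) h
  have h3 : (volume : Measure (V n)).real (core n) ≤ 1 := by
    have := ENNReal.toReal_mono ENNReal.one_ne_top h1
    simpa [Measure.real] using this
  calc _ ≤ M * (volume : Measure (V n)).real (core n) := h2
    _ ≤ M * 1 := mul_le_mul_of_nonneg_left h3 hM
    _ = M := mul_one M

theorem abs_le_nr (ξ : V n) (j : Fin n) : |ξ j| ≤ nr ξ := by
  unfold nr
  refine Real.abs_le_sqrt ?_
  exact Finset.single_le_sum (f := fun j => ξ j ^ 2) (fun _ _ => sq_nonneg _) (Finset.mem_univ j)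

theorem nr_nonneg (ξ : V n) : 0 ≤ nr ξ := Real.sqrt_nonneg _

theorem nr_sq (ξ : V n) : nr ξ ^ 2 = ∑ j, ξ j ^ 2 :=
  Real.sq_sqrt (Finset.sum_nonneg fun _ _ => sq_nonneg _)

theorem ft_core {f : V n → ℂ} (h0 : ∀ x ∉ core n, f x = 0) (ξ : V n) :
    ∫ x in core n, f x * ex (-ξ) x = ft f ξ := by
  rw [ft]
  apply setIntegral_eq_integral_of_forall_compl_eq_zero
  intro x hx
  rw [h0 x hx, zero_mul]

theorem sum2_le {f : Fin n → Fin n → ℂ} {M : ℝ} (h : ∀ i j, ‖f i j‖ ≤ M) :
    ‖∑ i, ∑ j, f i j‖ ≤ (n : ℝ) ^ 2 * M := by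
  calc ‖∑ i, ∑ j, f i j‖ ≤ ∑ i : Fin n, ∑ j : Fin n, M :=
        (norm_sum_le _ _).trans (Finset.sum_le_sum fun i _ =>
          (norm_sum_le _ _).trans (Finset.sum_le_sum fun j _ => h i j))
    _ = _ := by
        simp only [Finset.sum_const, Finset.card_univ, Fintype.card_fin, nsmul_eq_mul]
        ring

/-- The Fourier transform of the equation. -/
theorem ident (hA1 : RowA1) {z : Fin n → ℂ} {i₀ : Fin n} {t : MF n} (ht : SmM t)
    (ht1 : ∀ x ∉ core n, t x = 1) {q₀ q : V n → ℝ} (hq₀ : ContDiff ℝ ∞ q₀) (hq : ContDiff ℝ ∞ q)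
    {c₀ c : Ix n → ℂ} {u₀ u : V n → ℂ} (S₀ : SolQ z (th0 i₀) (fun _ => 1) q₀ c₀ u₀)
    (S : SolQ z (th0 i₀) t q c u) (he : ∀ x ∈ cube n, x ∉ core n → u x = u₀ x) (ξ : V n) :
    (∫ x in core n, ((q x : ℂ) * (1 + Es (th0 i₀) c x) - (q₀ x : ℂ) * (1 + Es (th0 i₀) c₀ x))
        * ex (-ξ) x)
      + (∑ i, ∑ j, z j * zt z ξ i * ft (ent t i j) ξ)
      + (∫ x in core n, ∑ i, ∑ j, ent t i j x
        * Es (th0 i₀) (fun k => lmz i₀ z k j * c k) x * zt z ξ i * ex (-ξ) x)
      - (∑ j, zt z ξ j ^ 2) * ∫ x in core n, (Es (th0 i₀) c x - Es (th0 i₀) c₀ x) * ex (-ξ) x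
      = 0 := by
  obtain ⟨hu, hr, hg⟩ := grad hA1 S
  obtain ⟨hu₀, -, -⟩ := grad hA1 S₀
  have h1 := green ht ht1 hu hu₀ (H127.exw_contDiff (zt z ξ)) he
  have cE : ∀ {d : Ix n → ℂ}, RD d → Continuous (Es (th0 i₀) d) := fun h =>
    (hA1 (th0 i₀) _ h).1.continuous
  have cx' : Continuous (ex (-ξ)) := (H776.ex_contDiff (-ξ)).continuous
  have cq : Continuous fun x => (q x : ℂ) := Complex.continuous_ofReal.comp hq.continuous
  have cq₀ : Continuous fun x => (q₀ x : ℂ) := Complex.continuous_ofReal.comp hq₀.continuous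
  have ce : ∀ i j, Continuous (ent t i j) := fun i j =>
    Complex.continuous_ofReal.comp ((ht i j).continuous.sub continuous_const)
  have hint : ∀ {f : V n → ℂ}, Continuous f → IntegrableOn f (core n) := fun h =>
    h.continuousOn.integrableOn_compact H127.isCompact_core
  have c1 : Continuous fun x => ((q x : ℂ) * (1 + Es (th0 i₀) c x)
      - (q₀ x : ℂ) * (1 + Es (th0 i₀) c₀ x)) * ex (-ξ) x :=
    ((cq.mul (continuous_const.add (cE S.rc))).sub
      (cq₀.mul (continuous_const.add (cE S₀.rc)))).mul cx'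
  have c2 : Continuous fun x => ∑ i, ∑ j, z j * zt z ξ i * (ent t i j x * ex (-ξ) x) :=
    continuous_finsetSum _ fun i _ => continuous_finsetSum _ fun j _ =>
      continuous_const.mul ((ce i j).mul cx')
  have c3 : Continuous fun x => ∑ i, ∑ j, ent t i j x
      * Es (th0 i₀) (fun k => lmz i₀ z k j * c k) x * zt z ξ i * ex (-ξ) x :=
    continuous_finsetSum _ fun i _ => continuous_finsetSum _ fun j _ =>
      (((ce i j).mul (cE (hr j))).mul continuous_const).mul cx'
  have c4 : Continuous fun x => (Es (th0 i₀) c x - Es (th0 i₀) c₀ x) * ex (-ξ) x :=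
    ((cE S.rc).sub (cE S₀.rc)).mul cx'
  have h2 : ∀ x ∈ core n, H127.exw (zt z ξ) x * (dv t u x - dv (fun _ => 1) u₀ x)
      + (∑ i, ∑ j, ent t i j x * pd j u x * pd i (H127.exw (zt z ξ)) x)
      - (u x - u₀ x) * dv (fun _ => 1) (H127.exw (zt z ξ)) x =
      ((q x : ℂ) * (1 + Es (th0 i₀) c x) - (q₀ x : ℂ) * (1 + Es (th0 i₀) c₀ x)) * ex (-ξ) x
      + (∑ i, ∑ j, z j * zt z ξ i * (ent t i j x * ex (-ξ) x))
      + (∑ i, ∑ j, ent t i j x
        * Es (th0 i₀) (fun k => lmz i₀ z k j * c k) x * zt z ξ i * ex (-ξ) x)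
      - (∑ j, zt z ξ j ^ 2) * ((Es (th0 i₀) c x - Es (th0 i₀) c₀ x) * ex (-ξ) x) := by
    intro x hx
    have hE := exw_zt z ξ x
    have hu' : u x = H127.exw z x * (1 + Es (th0 i₀) c x) := S.val x
    have hu₀' : u₀ x = H127.exw z x * (1 + Es (th0 i₀) c₀ x) := S₀.val x
    rw [S.eq x (H127.core_sub hx), S₀.eq x (H127.core_sub hx), dv_exw', hu', hu₀', ← hE,
      add_assoc (_ * _), ← Finset.sum_add_distrib]
    congr 1
    · congr 1
      · ring
      · refine Finset.sum_congr rfl fun i _ => ?_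
        rw [← Finset.sum_add_distrib]
        refine Finset.sum_congr rfl fun j _ => ?_
        rw [hg j x, H127.pd_exw]
        ring
    · ring
  rw [setIntegral_congr_fun core_closed.measurableSet h2] at h1
  have i1 := hint c1
  have i2 := hint c2
  have i3 := hint c3
  have i4 := (hint c4).const_mul (∑ j, zt z ξ j ^ 2)
  have i12 := i1.add i2
  have i123 := i12.add i3
  have e1 := integral_sub (μ := volume.restrict (core n)) i123 i4
  have e2 := integral_add (μ := volume.restrict (core n)) i12 i3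
  have e3 := integral_add (μ := volume.restrict (core n)) i1 i2
  simp only [Pi.add_apply] at e1 e2 e3
  rw [e1, e2, e3, integral_const_mul] at h1
  rw [← h1]
  congr 3
  have c5 : ∀ i j, Continuous fun x => z j * zt z ξ i * (ent t i j x * ex (-ξ) x) := fun i j =>
    continuous_const.mul ((ce i j).mul cx')
  have e5 : ∫ x in core n, ∑ i, ∑ j, z j * zt z ξ i * (ent t i j x * ex (-ξ) x) =
      ∑ i, ∫ x in core n, ∑ j, z j * zt z ξ i * (ent t i j x * ex (-ξ) x) :=
    integral_finsetSum _ fun i _ => hint (continuous_finsetSum _ fun j _ => c5 i j)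
  rw [e5]
  refine Finset.sum_congr rfl fun i _ => ?_
  have e6 : ∫ x in core n, ∑ j, z j * zt z ξ i * (ent t i j x * ex (-ξ) x) =
      ∑ j, ∫ x in core n, z j * zt z ξ i * (ent t i j x * ex (-ξ) x) :=
    integral_finsetSum _ fun j _ => hint (c5 i j)
  rw [e6]
  refine Finset.sum_congr rfl fun j _ => ?_
  rw [integral_const_mul, ft_core]
  intro x hx
  rw [ent, ht1 x hx]
  simp

end Vale.Agent.P088.LR.CC.H183
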