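import Vale.Agent.P088.H183.Ge2

/-!
# P088, theorem C, row GE, third part: the estimate in the direction `e_i + √-1 e_{jj i}`
-/

open MeasureTheory Set
open scoped ContDiff Matrix

noncomputable section

namespace Vale.Agent.P088.LR.CC.H183

open CF

variable {n : ℕ}

theorem nr_xg (jj : Fin n → Fin n) {X : ℝ} (hX : 0 ≤ X) (i : Fin n) : nr (xg jj X i) = X := by
  unfold nr xg
  rw [Finset.sum_eq_single (jj i)]
  · rw [Pi.single_eq_same, neg_sq, Real.sqrt_sq hX]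
  · intro j _ hj
    rw [Pi.single_eq_of_ne hj]
    simp
  · intro h
    exact absurd (Finset.mem_univ _) h

theorem zs_xg (jj : Fin n → Fin n) {X : ℝ} (hX : 0 ≤ X) (i j : Fin n) :
    zs 1 i (xg jj X i) j = ((Real.pi * X : ℝ) : ℂ) * tg jj i j := by
  unfold zs tg
  rw [nr_xg jj hX i]
  apply Complex.ext
  · rw [Complex.re_ofReal_mul]
    by_cases h : j = i
    · simp [h]
    · simp [h]
  · rw [Complex.im_ofReal_mul]
    unfold xg
    by_cases h : j = jj i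
    · rw [h]
      simp
    · rw [Pi.single_eq_of_ne h]
      simp [h]

theorem tg_norm (jj : Fin n → Fin n) (i j : Fin n) : ‖tg jj i j‖ ≤ 2 := by
  refine (Complex.norm_le_abs_re_add_abs_im _).trans ?_
  unfold tg
  have h1 : |(if j = i then (1 : ℝ) else 0)| ≤ 1 := by split_ifs <;> simp
  have h2 : |(if j = jj i then (1 : ℝ) else 0)| ≤ 1 := by split_ifs <;> simp
  show |(if j = i then (1 : ℝ) else 0)| + |(if j = jj i then (1 : ℝ) else 0)| ≤ 2
  linarith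

theorem npi : ‖2 * (Real.pi : ℂ) * Complex.I‖ = 2 * Real.pi := by
  rw [norm_mul, norm_mul, Complex.norm_I, Complex.norm_real, Real.norm_eq_abs,
    abs_of_pos Real.pi_pos]
  norm_num

theorem fin_bd {X a C₁ B s p m y : ℝ} (hX : 1 ≤ X) (ha : 0 ≤ a) (hC : 0 ≤ C₁) (hB : 0 ≤ B)
    (hs0 : 0 ≤ s) (hpi : 3 < p) (hm : 0 ≤ m) (r5 : (p * X) ^ 2 * y ≤
      4 * p ^ 2 * s ^ 2 * (C₁ * X * a) + (3 * a + B * (C₁ * X * a))
      + m * (a * (C₁ * (1 + X ^ 2 * a)) * (2 * p * X * (1 + s)))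
      + 2 * p * (m * (2 * p * X * s * a))) :
    y ≤ (4 * C₁ + 3 + B * C₁ + 2 * m * C₁ + 4 * m) * (1 + s) ^ 2 * (a / X + X * a ^ 2) := by
  have hX0 : 0 < X := by linarith
  have hpi0 : 0 < p := by linarith
  -- conclusion
  have hp2 : 1 ≤ p ^ 2 := by nlinarith
  set W : ℝ := (1 + s) ^ 2 * (X * a + X ^ 3 * a ^ 2) with hW
  have hw1 : X * a ≤ W := by
    have : 1 ≤ (1 + s) ^ 2 := by nlinarith
    have h2 : 0 ≤ X ^ 3 * a ^ 2 := by positivity
    have h3 : 0 ≤ X * a := by positivity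
    nlinarith
  have hw2 : s * (X * a) ≤ W := by
    have : s ≤ (1 + s) ^ 2 := by nlinarith
    have h2 : 0 ≤ X ^ 3 * a ^ 2 := by positivity
    have h3 : 0 ≤ X * a := by positivity
    calc s * (X * a) ≤ (1 + s) ^ 2 * (X * a) := mul_le_mul_of_nonneg_right this h3
      _ ≤ W := mul_le_mul_of_nonneg_left (by linarith) (by positivity)
  have hw3 : s ^ 2 * (X * a) ≤ W := by
    have : s ^ 2 ≤ (1 + s) ^ 2 := by nlinarith
    have h2 : 0 ≤ X ^ 3 * a ^ 2 := by positivity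
    have h3 : 0 ≤ X * a := by positivity
    calc s ^ 2 * (X * a) ≤ (1 + s) ^ 2 * (X * a) := mul_le_mul_of_nonneg_right this h3
      _ ≤ W := mul_le_mul_of_nonneg_left (by linarith) (by positivity)
  have hw4 : (1 + s) * (X * a + X ^ 3 * a ^ 2) ≤ W := by
    have : 1 + s ≤ (1 + s) ^ 2 := by nlinarith
    exact mul_le_mul_of_nonneg_right this (by positivity)
  have hW0 : 0 ≤ W := by positivity
  have r6 : (p * X) ^ 2 * y ≤
      p ^ 2 * ((4 * C₁ + 3 + B * C₁ + 2 * m * C₁ + 4 * m) * W) := by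
    refine r5.trans ?_
    have k1 : 4 * p ^ 2 * s ^ 2 * (C₁ * X * a) ≤ p ^ 2 * (4 * C₁ * W) := by
      calc 4 * p ^ 2 * s ^ 2 * (C₁ * X * a) = p ^ 2 * (4 * C₁ * (s ^ 2 * (X * a))) := by
            ring
        _ ≤ _ := by gcongr
    have k2 : 3 * a + B * (C₁ * X * a) ≤ p ^ 2 * ((3 + B * C₁) * W) := by
      have h1 : a ≤ X * a := by nlinarith
      calc 3 * a + B * (C₁ * X * a) ≤ (3 + B * C₁) * (X * a) := by nlinarith
        _ ≤ (3 + B * C₁) * W := by gcongr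
        _ ≤ p ^ 2 * ((3 + B * C₁) * W) := le_mul_of_one_le_left (by positivity) hp2
    have k3 : m * (a * (C₁ * (1 + X ^ 2 * a)) * (2 * p * X * (1 + s))) ≤
        p ^ 2 * (2 * m * C₁ * W) := by
      calc m * (a * (C₁ * (1 + X ^ 2 * a)) * (2 * p * X * (1 + s)))
          = p * (2 * m * C₁ * ((1 + s) * (X * a + X ^ 3 * a ^ 2))) := by ring
        _ ≤ p * (2 * m * C₁ * W) := by gcongr
        _ ≤ p ^ 2 * (2 * m * C₁ * W) :=
          mul_le_mul_of_nonneg_right (by nlinarith) (by positivity)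
    have k4 : 2 * p * (m * (2 * p * X * s * a)) ≤
        p ^ 2 * (4 * m * W) := by
      calc 2 * p * (m * (2 * p * X * s * a))
          = p ^ 2 * (4 * m * (s * (X * a))) := by ring
        _ ≤ _ := by gcongr
    calc _ ≤ p ^ 2 * (4 * C₁ * W) + p ^ 2 * ((3 + B * C₁) * W)
          + p ^ 2 * (2 * m * C₁ * W) + p ^ 2 * (4 * m * W) :=
          add_le_add (add_le_add (add_le_add k1 k2) k3) k4
      _ = _ := by ring
  have r7 : (p * X) ^ 2 * ((4 * C₁ + 3 + B * C₁ + 2 * m * C₁ + 4 * m) * (1 + s) ^ 2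
      * (a / X + X * a ^ 2)) =
      p ^ 2 * ((4 * C₁ + 3 + B * C₁ + 2 * m * C₁ + 4 * m) * W) := by
    rw [hW]
    field_simp
  rw [← r7] at r6
  exact le_of_mul_le_mul_left r6 (by positivity)

theorem est (hA1 : RowA1) {X a C₁ B : ℝ} (hX : 1 ≤ X) (ha : 0 ≤ a) (hC : 0 ≤ C₁) (hB : 0 ≤ B)
    (hCa : C₁ * X * a ≤ 1) {jj : Fin n → Fin n} {i : Fin n} (hji : jj i ≠ i) {t : MF n}
    (ht : SmM t) (ht1 : ∀ x ∉ core n, t x = 1) {q₀ q : V n → ℝ} (hq₀ : ContDiff ℝ ∞ q₀)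
    (hq : ContDiff ℝ ∞ q) {c₀ c : Ix n → ℂ} {u₀ u : V n → ℂ}
    (S₀ : SolQ (zs 1 i (xg jj X i)) (th0 i) (fun _ => 1) q₀ c₀ u₀)
    (S : SolQ (zs 1 i (xg jj X i)) (th0 i) t q c u)
    (he : ∀ x ∈ cube n, x ∉ core n → u x = u₀ x)
    (b0 : ∀ x, ‖Es (th0 i) c₀ x‖ ≤ 1)
    (b1 : ∀ x, ‖Es (th0 i) c x - Es (th0 i) c₀ x‖ ≤ C₁ * X * a)
    (b2 : ∀ j x, ‖Es (th0 i) (fun k => lmz i (zs 1 i (xg jj X i)) k j * c k) x‖
      ≤ C₁ * (1 + X ^ 2 * a))
    (b3 : ∀ i j x, ‖ent t i j x‖ ≤ a) (b4 : ∀ x, ‖cx q x - cx q₀ x‖ ≤ a)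
    (b5 : ∀ x, ‖cx q₀ x‖ ≤ B) (ξ : V n) :
    ‖qf t ξ (tg jj i) - (∑ j, tg jj i j * ξ j) * (-(4 * Complex.I / X) *
      ∫ x in core n, (Es (th0 i) c x - Es (th0 i) c₀ x) * ex (-ξ) x)‖
      ≤ (4 * C₁ + 3 + B * C₁ + 2 * n ^ 2 * C₁ + 4 * n ^ 2) * (1 + nr ξ) ^ 2
        * (a / X + X * a ^ 2) := by
  have hX0 : 0 < X := by linarith
  have hpi := Real.pi_gt_three
  have hpi0 := Real.pi_pos
  set z := zs 1 i (xg jj X i) with hz
  have hzt : ∀ j, z j = ((Real.pi * X : ℝ) : ℂ) * tg jj i j := fun j => zs_xg jj hX0.le i j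
  obtain ⟨hz2, hzn, -⟩ := H393.sym i 1 (xg jj X i) (Or.inl rfl) (by
    unfold xg
    exact Pi.single_eq_of_ne hji.symm _) (by rw [nr_xg jj hX0.le i]; exact hX)
  rw [nr_xg jj hX0.le i] at hzn
  have hid := ident hA1 ht ht1 hq₀ hq S₀ S he ξ
  set R := ∫ x in core n, (Es (th0 i) c x - Es (th0 i) c₀ x) * ex (-ξ) x with hR
  set T1 := ∫ x in core n, ((q x : ℂ) * (1 + Es (th0 i) c x) - (q₀ x : ℂ) * (1 + Es (th0 i) c₀ x))
        * ex (-ξ) x with hT1
  set T3 := ∫ x in core n, ∑ i', ∑ j, ent t i' j x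
        * Es (th0 i) (fun k => lmz i z k j * c k) x * zt z ξ i' * ex (-ξ) x with hT3
  set N : ℂ := ∑ i', ∑ j, z j * (ξ i' : ℂ) * ft (ent t i' j) ξ with hN
  -- algebra
  have a1 : ∑ j, zt z ξ j ^ 2 = 4 * Real.pi * Complex.I * (∑ j, z j * ξ j)
      - 4 * Real.pi ^ 2 * ((nr ξ ^ 2 : ℝ) : ℂ) := by
    have h1 : ∀ j, zt z ξ j ^ 2 = z j ^ 2 + 4 * Real.pi * Complex.I * (z j * ξ j)
        - 4 * Real.pi ^ 2 * ((ξ j ^ 2 : ℝ) : ℂ) := by
      intro j
      unfold zt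
      push_cast
      linear_combination (4 * (Real.pi : ℂ) ^ 2 * (ξ j : ℂ) ^ 2) * Complex.I_sq
    rw [Finset.sum_congr rfl fun j _ => h1 j, Finset.sum_sub_distrib, Finset.sum_add_distrib, hz2,
      nr_sq, ← Finset.mul_sum, ← Finset.mul_sum]
    push_cast
    ring
  have a2 : ∑ i', ∑ j, z j * zt z ξ i' * ft (ent t i' j) ξ =
      -(((Real.pi * X : ℝ) : ℂ) ^ 2 * qf t ξ (tg jj i)) - 2 * Real.pi * Complex.I * N := by
    rw [hN, qf, Finset.mul_sum, Finset.mul_sum, ← Finset.sum_neg_distrib, ← Finset.sum_sub_distrib]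
    refine Finset.sum_congr rfl fun i' _ => ?_
    rw [Finset.mul_sum, Finset.mul_sum, ← Finset.sum_neg_distrib, ← Finset.sum_sub_distrib]
    refine Finset.sum_congr rfl fun j _ => ?_
    rw [zt, hzt i', hzt j]
    ring
  have a3 : ∑ j, z j * (ξ j : ℂ) = ((Real.pi * X : ℝ) : ℂ) * ∑ j, tg jj i j * ξ j := by
    rw [Finset.mul_sum]
    refine Finset.sum_congr rfl fun j _ => ?_
    rw [hzt j]
    ring
  have hXc : (X : ℂ) ≠ 0 := by exact_mod_cast hX0.ne'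
  set Y : ℂ := qf t ξ (tg jj i) - (∑ j, tg jj i j * ξ j) * (-(4 * Complex.I / X) * R) with hY
  have a4 : ((Real.pi * X : ℝ) : ℂ) ^ 2 * Y = 4 * Real.pi ^ 2 * ((nr ξ ^ 2 : ℝ) : ℂ) * R + T1 + T3
      - 2 * Real.pi * Complex.I * N := by
    rw [a1, a2, a3] at hid
    have h1 : ((Real.pi * X : ℝ) : ℂ) ^ 2 * ((∑ j, tg jj i j * ξ j) * (-(4 * Complex.I / X) * R)) =
        -(4 * Real.pi * Complex.I * (((Real.pi * X : ℝ) : ℂ) * ∑ j, tg jj i j * ξ j) * R) := by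
      push_cast
      field_simp
    rw [hY, mul_sub, h1]
    linear_combination -hid
  -- bounds
  set s := nr ξ with hs
  have hs0 : 0 ≤ s := nr_nonneg ξ
  have hex : ∀ x, ‖ex (-ξ) x‖ = 1 := fun x => H776.ex_norm _ x
  have r1 : ‖R‖ ≤ C₁ * X * a := core_int (by positivity) fun x _ => by
    rw [norm_mul, hex, mul_one]
    exact b1 x
  have r2 : ‖T1‖ ≤ 3 * a + B * (C₁ * X * a) := core_int (by positivity) fun x _ => by
    rw [norm_mul, hex, mul_one]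
    have e1 : (q x : ℂ) * (1 + Es (th0 i) c x) - (q₀ x : ℂ) * (1 + Es (th0 i) c₀ x) =
        (cx q x - cx q₀ x) * (1 + Es (th0 i) c₀ x + (Es (th0 i) c x - Es (th0 i) c₀ x))
        + cx q₀ x * (Es (th0 i) c x - Es (th0 i) c₀ x) := by
      unfold cx
      ring
    rw [e1]
    refine (norm_add_le _ _).trans (add_le_add ?_ ?_)
    · rw [norm_mul, mul_comm]
      have e2 : ‖1 + Es (th0 i) c₀ x + (Es (th0 i) c x - Es (th0 i) c₀ x)‖ ≤ 3 := by
        refine (norm_add₃_le).trans ?_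
        rw [norm_one]
        linarith [b0 x, b1 x]
      exact mul_le_mul e2 (b4 x) (norm_nonneg _) (by norm_num)
    · rw [norm_mul]
      exact mul_le_mul (b5 x) (b1 x) (norm_nonneg _) hB
  have hzt2 : ∀ j, ‖zt z ξ j‖ ≤ 2 * Real.pi * X * (1 + s) := by
    intro j
    unfold zt
    refine (norm_sub_le _ _).trans ?_
    have e1 : ‖2 * Real.pi * Complex.I * (ξ j : ℂ)‖ ≤ 2 * Real.pi * s := by
      rw [norm_mul, npi, Complex.norm_real, Real.norm_eq_abs]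
      exact mul_le_mul_of_nonneg_left (abs_le_nr ξ j) (by positivity)
    rw [norm_neg]
    have e2 : 2 * Real.pi * s ≤ 2 * Real.pi * s * X := by
      nlinarith [mul_nonneg (mul_nonneg zero_le_two hpi0.le) hs0]
    nlinarith [hzn j]
  have r3 : ‖T3‖ ≤ (n : ℝ) ^ 2 * (a * (C₁ * (1 + X ^ 2 * a)) * (2 * Real.pi * X * (1 + s))) :=
    core_int (by positivity) fun x _ => sum2_le fun i' j => by
      rw [norm_mul, hex, mul_one, norm_mul, norm_mul]
      exact mul_le_mul (mul_le_mul (b3 i' j x) (b2 j x) (norm_nonneg _) ha) (hzt2 i')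
        (norm_nonneg _) (by positivity)
  have hft : ∀ i' j, ‖ft (ent t i' j) ξ‖ ≤ a := fun i' j => by
    rw [← ft_core (fun x hx => by rw [ent, ht1 x hx]; simp)]
    refine core_int ha fun x _ => ?_
    rw [norm_mul, hex, mul_one]
    exact b3 i' j x
  have r4 : ‖N‖ ≤ (n : ℝ) ^ 2 * (2 * Real.pi * X * s * a) := sum2_le fun i' j => by
    rw [norm_mul, norm_mul, Complex.norm_real, Real.norm_eq_abs]
    exact mul_le_mul (mul_le_mul (hzn j) (abs_le_nr ξ i') (abs_nonneg _) (by positivity))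
      (hft i' j) (norm_nonneg _) (by positivity)
  have r5 : (Real.pi * X) ^ 2 * ‖Y‖ ≤ 4 * Real.pi ^ 2 * s ^ 2 * (C₁ * X * a)
      + (3 * a + B * (C₁ * X * a))
      + (n : ℝ) ^ 2 * (a * (C₁ * (1 + X ^ 2 * a)) * (2 * Real.pi * X * (1 + s)))
      + 2 * Real.pi * ((n : ℝ) ^ 2 * (2 * Real.pi * X * s * a)) := by
    have h1 : (Real.pi * X) ^ 2 * ‖Y‖ = ‖((Real.pi * X : ℝ) : ℂ) ^ 2 * Y‖ := by
      rw [norm_mul, norm_pow, Complex.norm_real, Real.norm_eq_abs,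
        abs_of_nonneg (by positivity : 0 ≤ Real.pi * X)]
    rw [h1, a4]
    refine (norm_sub_le _ _).trans (add_le_add ((norm_add₃_le).trans
      (add_le_add (add_le_add ?_ r2) r3)) ?_)
    · have h2 : ‖4 * (Real.pi : ℂ) ^ 2 * ((s ^ 2 : ℝ) : ℂ)‖ = 4 * Real.pi ^ 2 * s ^ 2 := by
        rw [norm_mul, norm_mul, norm_pow, Complex.norm_real, Complex.norm_real, Real.norm_eq_abs,
          Real.norm_eq_abs, abs_of_nonneg (sq_nonneg s), abs_of_pos hpi0]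
        norm_num
      rw [norm_mul, h2]
      exact mul_le_mul_of_nonneg_left r1 (by positivity)
    · rw [norm_mul, npi]
      exact mul_le_mul_of_nonneg_left r4 (by positivity)
  exact fin_bd hX ha hC hB hs0 hpi (sq_nonneg _) r5

end Vale.Agent.P088.LR.CC.H183
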