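import Vale.Agent.P088.H639.KCD
import Vale.Agent.P088.H924.Frame

/-!
# P088, theorem JB, row K_CON: the operator on Kelvin transforms
-/

open MeasureTheory Set Filter Topology
open scoped ContDiff Matrix

noncomputable section

namespace Vale.Agent.P088.H183

open Vale.Agent.P088.LR Vale.Agent.P088.LR.B Vale.Agent.P088.LR.CF Vale.Agent.P088.LR.U
  Vale.Agent.P088.LR.H158 Vale.Agent.P088.H639.Kv Vale.Agent.P088.H639.KC

variable {n N : ℕ}

theorem pd_comp_pi {u : V n → Fin N → ℂ} {x : V n} (hu : DifferentiableAt ℝ u x) (i : Fin n)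
    (l : Fin N) : pd i u x l = pd i (fun y => u y l) x := by
  unfold pd
  rw [fderiv_apply (𝕜 := ℝ) hu l]
  rfl

/-- The operator with a conformally flat density, expanded. -/
theorem lav_exp {σ : V n → ℝ} (hσ : SmP σ) {A : Cn n N} (hA : SmU A) {u : V n → Fin N → ℂ}
    (hu : ContDiff ℝ ∞ u) (x : V n) : lav (sc σ) A u x = (σ x : ℂ) • (∑ i, pd i (pd i u) x +
      ∑ i, Gm σ A i x *ᵥ pd i u x + Vm σ A x *ᵥ u x) := by
  have hσc : ContDiff ℝ ∞ fun y => (σ y : ℂ) := Complex.ofRealCLM.contDiff.comp hσ.1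
  have hσ0 : (σ x : ℂ) ≠ 0 := by exact_mod_cast (hσ.2 x).ne'
  have hpu : ∀ i, ContDiff ℝ ∞ (pd i u) := fun i => H158.contDiff_pd hu i
  have hcd : ∀ i, ContDiff ℝ ∞ (cd A i u) := fun i => contDiff_cd hA hu i
  have h1 : ∀ i, (fun y => ∑ j, (sc σ y i j : ℂ) • cd A j u y) = fun y => (σ y : ℂ) • cd A i u y := by
    intro i
    funext y
    rw [Finset.sum_eq_single i]
    · simp [sc]
    · intro j _ hj
      simp [sc, Matrix.one_apply_ne' hj]
    · intro h
      exact absurd (Finset.mem_univ i) h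
  have h2 : ∀ i, pd i (fun y => (σ y : ℂ)) x = ((pd i σ x : ℝ) : ℂ) := by
    intro i
    have h3 : HasFDerivAt (fun y => ((σ y : ℝ) : ℂ)) (Complex.ofRealCLM.comp (fderiv ℝ σ x)) x :=
      Complex.ofRealCLM.hasFDerivAt.comp x ((hσ.1.differentiable (by simp)) x).hasFDerivAt
    rw [pd, h3.fderiv, pd]
    rfl
  have h3 : ∀ i, pd i (cd A i u) x = pd i (pd i u) x + (pdm i (A i) x *ᵥ u x + A i x *ᵥ pd i u x) := by
    intro i
    have h4 : cd A i u = fun y => pd i u y + A i y *ᵥ u y := rfl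
    have h5 : ContDiff ℝ ∞ fun y => A i y *ᵥ u y := contDiff_mulVec (hA.1 i) hu
    have e : pd i (fun y => pd i u y + A i y *ᵥ u y) x =
        pd i (pd i u) x + pd i (fun y => A i y *ᵥ u y) x := by
      show fderiv ℝ (fun y => pd i u y + A i y *ᵥ u y) x (Pi.single i 1) = _
      rw [fderiv_fun_add ((hpu i).differentiable (by simp) x) (h5.differentiable (by simp) x)]
      rfl
    rw [h4, e, pd_mulVec (fun a b => hA.1 i a b) hu i x]
  have h7 : ∀ i, cd A i (fun y => ∑ j, (sc σ y i j : ℂ) • cd A j u y) x = (σ x : ℂ) •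
      (pd i (pd i u) x + Gm σ A i x *ᵥ pd i u x + (pdm i (A i) x + A i x * A i x +
        ((pd i σ x / σ x : ℝ) : ℂ) • A i x) *ᵥ u x) := by
    intro i
    rw [h1 i, cd_smul A hσc (hcd i), h2 i]
    have h8 : cd A i (cd A i u) x = pd i (cd A i u) x + A i x *ᵥ cd A i u x := rfl
    have h9 : cd A i u x = pd i u x + A i x *ᵥ u x := rfl
    rw [h8, h3 i, h9]
    unfold Gm
    simp only [Matrix.add_mulVec, Matrix.smul_mulVec, Matrix.one_mulVec, Matrix.mulVec_add,
      ← Matrix.mulVec_mulVec]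
    ext l
    simp only [Pi.add_apply, Pi.smul_apply, smul_eq_mul]
    push_cast
    field_simp
    ring
  unfold lav Vm
  rw [Finset.sum_congr rfl fun i _ => h7 i, ← Finset.smul_sum, Finset.sum_add_distrib,
    Finset.sum_add_distrib, Matrix.sum_mulVec]

/-- The algebra of one component. -/
theorem alg1 (G dW : Fin n → ℂ) (X : Fin n → ℝ) {s : ℝ} (hs : s ≠ 0) (w v : ℂ) (α : ℝ) :
    ∑ i, G i * ((2 * (α : ℂ) * ((X i : ℝ) : ℂ) * w + dW i) / (s : ℂ) -
      2 * ((X i : ℝ) : ℂ) * (∑ b, ((X b : ℝ) : ℂ) * dW b) / (s : ℂ) ^ 2) + v * w =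
    1 / (s : ℂ) ^ 2 * (∑ b, (∑ i, (((if i = b then s else 0) - 2 * X i * X b : ℝ) : ℂ) * G i) * dW b +
      (∑ i, ((2 * α * s * X i : ℝ) : ℂ) * G i + ((s ^ 2 : ℝ) : ℂ) * v) * w) := by
  have hsc : (s : ℂ) ≠ 0 := by exact_mod_cast hs
  have h1 : ∑ b, (∑ i, (((if i = b then s else 0) - 2 * X i * X b : ℝ) : ℂ) * G i) * dW b =
      ∑ i, ((s : ℂ) * (G i * dW i) - 2 * ((X i : ℝ) : ℂ) * G i * ∑ b, ((X b : ℝ) : ℂ) * dW b) := by
    simp only [Finset.sum_mul]
    rw [Finset.sum_comm]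
    refine Finset.sum_congr rfl fun i _ => ?_
    have h2 : ∀ b, (((if i = b then s else 0) - 2 * X i * X b : ℝ) : ℂ) * G i * dW b =
        (if i = b then (s : ℂ) * (G i * dW b) else 0) -
          2 * ((X i : ℝ) : ℂ) * G i * (((X b : ℝ) : ℂ) * dW b) := by
      intro b
      split_ifs <;> push_cast <;> ring
    rw [Finset.sum_congr rfl fun b _ => h2 b, Finset.sum_sub_distrib, Finset.sum_ite_eq,
      if_pos (Finset.mem_univ i), ← Finset.mul_sum]
  rw [h1, add_mul, Finset.sum_mul, ← add_assoc, ← Finset.sum_add_distrib, mul_add, Finset.mul_sum]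
  congr 1
  · refine Finset.sum_congr rfl fun i _ => ?_
    push_cast
    field_simp
    ring
  · push_cast
    field_simp

theorem keq : RowEq := by
  intro n N σ A hσ hA q W hW u hu x hx hev l
  have hS : (S q x : ℂ) ≠ 0 := by exact_mod_cast hx.ne'
  have hud : Differentiable ℝ u := hu.differentiable (by simp)
  have e0 : ∀ m, u x m = ((S q x ^ al n : ℝ) : ℂ) * W m (Yv q x) := fun m => (hev m).eq_of_nhds
  have e1 : ∀ i m, pd i u x m = ((S q x ^ al n : ℝ) : ℂ) * Rr q (W m) i x := by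
    intro i m
    rw [pd_comp_pi (hud x), ← pd_K q (hW m) hx i]
    unfold pd
    rw [(hev m).fderiv_eq]
  have e2 : (∑ i, pd i (pd i u) x) l = ((S q x ^ al n : ℝ) : ℂ) / (S q x : ℂ) ^ 2 *
      dv (fun _ => 1) (W l) (Yv q x) := by
    rw [← dv_K q (hW l) hx, ← dv_congr_ev (hev l), dv_one, Finset.sum_apply]
    refine Finset.sum_congr rfl fun i _ => ?_
    rw [pd_comp_pi ((H158.contDiff_pd hu i).differentiable (by simp) x)]
    congr 1
    funext y
    exact pd_comp_pi (hud y) i l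
  rw [lav_exp hσ hA hu x, Pi.smul_apply, Pi.add_apply, Pi.add_apply, e2, smul_eq_mul,
    Finset.sum_apply]
  have e3 : ∑ i, (Gm σ A i x *ᵥ pd i u x) l + (Vm σ A x *ᵥ u x) l =
      ∑ m, (∑ i, Gm σ A i x l m * pd i u x m + Vm σ A x l m * u x m) := by
    rw [Finset.sum_add_distrib, Finset.sum_comm]
    rfl
  have e4 : ∀ m, ∑ i, Gm σ A i x l m * pd i u x m + Vm σ A x l m * u x m =
      ((S q x ^ al n : ℝ) : ℂ) / (S q x : ℂ) ^ 2 * (∑ b, Lx σ A q b x l m * pd b (W m) (Yv q x) +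
        Qx σ A q x l m * W m (Yv q x)) := by
    intro m
    have h1 := alg1 (fun i => Gm σ A i x l m) (fun b => pd b (W m) (Yv q x))
      (fun i => x i - q i) hx.ne' (W m (Yv q x)) (Vm σ A x l m) (al n)
    have h2 : ∀ b, Lx σ A q b x l m =
        ∑ i, (((if i = b then S q x else 0) - 2 * (x i - q i) * (x b - q b) : ℝ) : ℂ) *
          Gm σ A i x l m := by
      intro b
      unfold Lx
      rw [Matrix.sum_apply]
      rfl
    have h3 : Qx σ A q x l m = ∑ i, ((2 * al n * S q x * (x i - q i) : ℝ) : ℂ) * Gm σ A i x l m +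
        ((S q x ^ 2 : ℝ) : ℂ) * Vm σ A x l m := by
      unfold Qx
      rw [Matrix.add_apply, Matrix.sum_apply]
      rfl
    have h5 : ∑ i, Gm σ A i x l m * pd i u x m + Vm σ A x l m * u x m =
        ((S q x ^ al n : ℝ) : ℂ) * (∑ i, Gm σ A i x l m * Rr q (W m) i x +
          Vm σ A x l m * W m (Yv q x)) := by
      rw [mul_add, Finset.mul_sum, e0 m]
      congr 1
      · refine Finset.sum_congr rfl fun i _ => ?_
        rw [e1 i m]
        ring
      · ring
    have h6 : ∑ b, Lx σ A q b x l m * pd b (W m) (Yv q x) =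
        ∑ b, (∑ i, (((if i = b then S q x else 0) - 2 * (x i - q i) * (x b - q b) : ℝ) : ℂ) *
          Gm σ A i x l m) * pd b (W m) (Yv q x) := by
      refine Finset.sum_congr rfl fun b _ => ?_
      rw [h2 b]
    have h7 : ∑ i, Gm σ A i x l m * Rr q (W m) i x + Vm σ A x l m * W m (Yv q x) = _ := h1
    rw [h5, h6, h3, h7]
    ring
  rw [add_assoc, e3, Finset.sum_congr rfl fun m _ => e4 m, ← Finset.mul_sum, ← mul_add,
    Finset.sum_add_distrib, Finset.sum_comm]
  ring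

end Vale.Agent.P088.H183
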